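import Mathlib

open MeasureTheory Filter Topology ProbabilityTheory
open scoped ENNReal unitInterval

namespace Vale.Agent.P143C

/-- Uniform measure on `[0,1]` as a measure on the reals. -/
noncomputable def unif : Measure ℝ := volume.restrict (Set.Icc (0:ℝ) 1)

/-- The transformed label. -/
noncomputable def vlab (q x : ℝ) (b : Prop) : ℝ :=
  open Classical in if b then q * x else q + (1 - q) * x

instance instProbUnif : IsProbabilityMeasure unif := ⟨by simp [unif]⟩

/-- Affine change of variables. -/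
lemma scale (c d : ℝ) (hc : 0 ≤ c) (φ : ℝ → ℝ≥0∞) (hφ : Measurable φ) :
    ENNReal.ofReal c * ∫⁻ x, φ (d + c * x) ∂unif = ∫⁻ y in Set.Icc d (d + c), φ y := by
  rcases hc.eq_or_lt with rfl | hc
  · simp
  · have h1 : ∫⁻ y in Set.Icc d (d + c), φ y =
        ∫⁻ y, (Set.Icc d (d + c)).indicator φ (d + y) := by
      rw [lintegral_add_left_eq_self, lintegral_indicator measurableSet_Icc]
    have hm : Measurable fun y => (Set.Icc d (d + c)).indicator φ (d + y) :=
      (hφ.indicator measurableSet_Icc).comp (measurable_const_add d)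
    rw [h1, ← Real.smul_map_volume_mul_left hc.ne', lintegral_smul_measure,
      lintegral_map hm (measurable_const_mul c), abs_of_pos hc, unif,
      ← lintegral_indicator measurableSet_Icc, smul_eq_mul]
    congr 1
    apply lintegral_congr
    intro x
    by_cases hx : x ∈ Set.Icc (0:ℝ) 1
    · rw [Set.indicator_of_mem hx, Set.indicator_of_mem]
      constructor
      · nlinarith [hx.1, mul_nonneg hc.le hx.1]
      · nlinarith [hx.2, mul_le_mul_of_nonneg_left hx.2 hc.le]
    · rw [Set.indicator_of_notMem hx, Set.indicator_of_notMem]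
      intro h
      apply hx
      constructor
      · by_contra h0
        push Not at h0
        nlinarith [h.1, mul_neg_of_pos_of_neg hc h0]
      · by_contra h0
        push Not at h0
        nlinarith [h.2, mul_lt_mul_of_pos_left h0 hc]

lemma split_unif (q : ℝ) (hq : q ∈ Set.Icc (0:ℝ) 1) (φ : ℝ → ℝ≥0∞) (hφ : Measurable φ) :
    ENNReal.ofReal q * ∫⁻ x, φ (q * x) ∂unif +
      ENNReal.ofReal (1 - q) * ∫⁻ x, φ (q + (1 - q) * x) ∂unif = ∫⁻ y, φ y ∂unif := by
  have h1 := scale q 0 hq.1 φ hφ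
  have h2 := scale (1 - q) q (by linarith [hq.2]) φ hφ
  simp only [zero_add] at h1
  rw [h1, h2, unif, add_sub_cancel, ← setLIntegral_congr Ico_ae_eq_Icc,
    ← Set.Ico_union_Icc_eq_Icc hq.1 hq.2, lintegral_union measurableSet_Icc]
  rw [Set.disjoint_left]
  intro x hx hx'
  exact absurd hx.2 (not_lt.2 hx'.1)

/-- Refreshing one coordinate. -/
lemma map_update {E : Type*} [DecidableEq E] (e : E) :
    ((Measure.infinitePi fun _ : E => unif).prod unif).map
        (fun p => Function.update p.1 e p.2) =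
      Measure.infinitePi fun _ : E => unif := by
  have hmeas : Measurable fun p : (E → ℝ) × ℝ => Function.update p.1 e p.2 := by
    refine measurable_pi_iff.2 fun i => ?_
    by_cases h : i = e
    · subst h
      simpa using measurable_snd
    · simp only [Function.update_of_ne h]
      exact (measurable_pi_apply i).comp measurable_fst
  apply Measure.eq_infinitePi
  intro s t ht
  rw [Measure.map_apply hmeas (MeasurableSet.pi s.countable_toSet fun i _ => ht i)]
  have hpre : (fun p : (E → ℝ) × ℝ => Function.update p.1 e p.2) ⁻¹' ((s : Set E).pi t) =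
      ((↑(s.erase e) : Set E).pi t) ×ˢ (if e ∈ s then t e else Set.univ) := by
    ext ⟨x, y⟩
    simp only [Set.mem_preimage, Set.mem_pi, Set.mem_prod, Finset.mem_coe, Finset.mem_erase]
    constructor
    · intro h
      refine ⟨fun i hi => ?_, ?_⟩
      · have := h i hi.2
        rwa [Function.update_of_ne hi.1] at this
      · split_ifs with hs
        · have := h e hs
          simpa using this
        · trivial
    · rintro ⟨h1, h2⟩ i hi
      by_cases hie : i = e
      · subst hie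
        rw [if_pos hi] at h2
        simpa using h2
      · rw [Function.update_of_ne hie]
        exact h1 i ⟨hie, hi⟩
  rw [hpre, Measure.prod_prod, Measure.infinitePi_pi _ (fun i _ => ht i)]
  by_cases hs : e ∈ s
  · rw [if_pos hs, Finset.prod_erase_mul _ _ hs]
  · rw [if_neg hs, measure_univ, mul_one, Finset.erase_eq_of_notMem hs]

variable {E : Type*}

/-- The part of `T` strictly before `e`. -/
def past (τ : E → ℝ) (e : E) (T : Set E) : Set E := {f | f ∈ T ∧ τ f < τ e}

lemma measurable_past (τ : E → ℝ) (e : E) : Measurable (past τ e) := by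
  refine measurable_set_iff.2 fun a => ?_
  by_cases h : τ a < τ e
  · simp only [past, h, Set.mem_ofPred_eq, and_true]
    exact measurable_set_mem a
  · simp only [past, h, Set.mem_ofPred_eq, and_false]
    exact measurable_const

lemma past_iff (τ : E → ℝ) (e : E) (T : Set E) (f : E) (hf : τ f < τ e) :
    (f ∈ T ↔ f ∈ past τ e T) := by
  simp [past, hf]

/-- The cylinder sets. -/
def cyl (A B : Finset E) : Set (Set E) := {T | ↑A ⊆ T ∧ Disjoint (B : Set E) T}

lemma measurableSet_cyl (A B : Finset E) : MeasurableSet (cyl A B) := by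
  have h : cyl A B = (⋂ a ∈ A, {T : Set E | a ∈ T}) ∩ ⋂ b ∈ B, {T : Set E | b ∉ T} := by
    ext T
    simp only [cyl, Set.mem_ofPred_eq, Set.mem_inter_iff, Set.mem_iInter, Set.disjoint_left,
      Finset.mem_coe]
    rfl
  rw [h]
  exact (Finset.measurableSet_biInter A fun a _ => measurableSet_mem a).inter
    (Finset.measurableSet_biInter B fun b _ => measurableSet_notMem b)

lemma generate_cyl :
    (Set.instMeasurableSpace : MeasurableSpace (Set E)) =
      MeasurableSpace.generateFrom {S | ∃ A B : Finset E, S = cyl A B} := by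
  apply le_antisymm
  · change MeasurableSpace.pi ≤ _
    refine iSup_le fun a => ?_
    refine measurable_iff_comap_le.1 ?_
    refine (@measurableSet_setOfPred (Set E) (MeasurableSpace.generateFrom
      {S | ∃ A B : Finset E, S = cyl A B}) (fun T => a ∈ T)).1 ?_
    apply MeasurableSpace.measurableSet_generateFrom
    refine ⟨{a}, ∅, ?_⟩
    ext T
    simp [cyl]
  · apply MeasurableSpace.generateFrom_le
    rintro _ ⟨A, B, rfl⟩
    exact measurableSet_cyl A B

lemma isPiSystem_cyl : IsPiSystem {S | ∃ A B : Finset E, S = cyl A B} := by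
  classical
  rintro _ ⟨A, B, rfl⟩ _ ⟨A', B', rfl⟩ _
  refine ⟨A ∪ A', B ∪ B', ?_⟩
  ext T
  simp only [cyl, Set.mem_inter_iff, Set.mem_ofPred_eq, Finset.coe_union, Set.union_subset_iff,
    Set.disjoint_union_left]
  tauto

section Main

variable (τ : E → ℝ) (𝔗 : Measure (Set E)) [IsProbabilityMeasure 𝔗]
    (q : E → Set E → ℝ) (hqm : ∀ e, Measurable (q e)) (hq0 : ∀ e T, q e T ∈ Set.Icc (0:ℝ) 1)
    (hqdep : ∀ e T T', (∀ f, τ f < τ e → (f ∈ T ↔ f ∈ T')) → q e T = q e T')
    (hqc : ∀ (e : E) (A B : Finset E), (∀ f ∈ A, τ f < τ e) → (∀ f ∈ B, τ f < τ e) →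
      𝔗 {T | e ∈ T ∧ ↑A ⊆ T ∧ Disjoint (B : Set E) T} =
        ∫⁻ T in {T | ↑A ⊆ T ∧ Disjoint (B : Set E) T}, ENNReal.ofReal (q e T) ∂𝔗)

include hqc in
lemma past_measure_eq (e : E) :
    (𝔗.restrict {T | e ∈ T}).map (past τ e) =
      (𝔗.withDensity (fun T => ENNReal.ofReal (q e T))).map (past τ e) := by
  classical
  have hms := measurableSet_mem e
  have key : ∀ A B : Finset E,
      (𝔗.restrict {T | e ∈ T}).map (past τ e) (cyl A B) =
      (𝔗.withDensity (fun T => ENNReal.ofReal (q e T))).map (past τ e) (cyl A B) := by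
    intro A B
    have hmc := measurableSet_cyl A B
    rw [Measure.map_apply (measurable_past τ e) hmc, Measure.map_apply (measurable_past τ e) hmc,
      Measure.restrict_apply (measurable_past τ e hmc),
      withDensity_apply _ (measurable_past τ e hmc)]
    by_cases hA : ∀ f ∈ A, τ f < τ e
    · have hpre : past τ e ⁻¹' cyl A B =
          {T | ↑A ⊆ T ∧ Disjoint ((B.filter fun f => τ f < τ e : Finset E) : Set E) T} := by
        ext T
        simp only [cyl, Set.mem_preimage, Set.mem_ofPred_eq, Set.disjoint_left, Finset.mem_coe,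
          Finset.mem_filter]
        constructor
        · rintro ⟨h1, h2⟩
          exact ⟨fun f hf => (past_iff τ e T f (hA f hf)).2 (h1 hf),
            fun f hf hT => h2 hf.1 ((past_iff τ e T f hf.2).1 hT)⟩
        · rintro ⟨h1, h2⟩
          exact ⟨fun f hf => (past_iff τ e T f (hA f hf)).1 (h1 hf),
            fun f hf hT => h2 ⟨hf, hT.2⟩ hT.1⟩
      have h := hqc e A (B.filter fun f => τ f < τ e) hA (fun f hf => (Finset.mem_filter.1 hf).2)
      rw [hpre, ← h]
      congr 1
      ext T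
      simp only [Set.mem_inter_iff, Set.mem_ofPred_eq]
      tauto
    · have hpre : past τ e ⁻¹' cyl A B = ∅ := by
        push Not at hA
        obtain ⟨f, hf, hfe⟩ := hA
        ext T
        simp only [cyl, Set.mem_preimage, Set.mem_ofPred_eq, Set.mem_empty_iff_false, iff_false]
        rintro ⟨h1, -⟩
        exact absurd (h1 hf).2 (not_lt.2 hfe)
      rw [hpre]
      simp
  have hfin : IsFiniteMeasure ((𝔗.restrict {T | e ∈ T}).map (past τ e)) := inferInstance
  refine ext_of_generate_finite _ generate_cyl isPiSystem_cyl ?_ ?_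
  · rintro _ ⟨A, B, rfl⟩
    exact key A B
  · have h := key ∅ ∅
    have hu : (cyl ∅ ∅ : Set (Set E)) = Set.univ := by
      ext T; simp [cyl]
    rwa [hu] at h

include hqm hqc in
lemma past_lintegral (e : E) (F : Set E → ℝ≥0∞) (hF : Measurable F)
    (hdep : ∀ T T', (∀ f, τ f < τ e → (f ∈ T ↔ f ∈ T')) → F T = F T') :
    ∫⁻ T in {T | e ∈ T}, F T ∂𝔗 = ∫⁻ T, ENNReal.ofReal (q e T) * F T ∂𝔗 := by
  have hF' : ∀ T, F T = F (past τ e T) := fun T => hdep _ _ fun f hf => past_iff τ e T f hf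
  have h1 : ∫⁻ T in {T | e ∈ T}, F T ∂𝔗 = ∫⁻ T, F T ∂((𝔗.restrict {T | e ∈ T}).map (past τ e)) := by
    rw [lintegral_map hF (measurable_past τ e)]
    exact lintegral_congr hF'
  rw [h1, past_measure_eq τ 𝔗 q hqc e, lintegral_map hF (measurable_past τ e)]
  simp only [← hF']
  rw [lintegral_withDensity_eq_lintegral_mul _ (hqm e).ennreal_ofReal hF]
  rfl

include hqm hq0 hqc in
lemma past_measure_eq' (e : E) :
    (𝔗.restrict {T | e ∈ T}ᶜ).map (past τ e) =
      (𝔗.withDensity (fun T => ENNReal.ofReal (1 - q e T))).map (past τ e) := by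
  have hp := measurable_past τ e
  have hms : MeasurableSet {T : Set E | e ∈ T} := measurableSet_mem e
  ext S hS
  have h1 : (𝔗.restrict {T | e ∈ T}).map (past τ e) S =
      (𝔗.withDensity (fun T => ENNReal.ofReal (q e T))).map (past τ e) S := by
    rw [past_measure_eq τ 𝔗 q hqc e]
  rw [Measure.map_apply hp hS, Measure.map_apply hp hS] at h1 ⊢
  have hsum1 : 𝔗.restrict {T | e ∈ T} (past τ e ⁻¹' S) + 𝔗.restrict {T | e ∈ T}ᶜ (past τ e ⁻¹' S)
      = 𝔗 (past τ e ⁻¹' S) := by
    rw [← Measure.add_apply, Measure.restrict_add_restrict_compl hms]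
  have hsum2 : (𝔗.withDensity (fun T => ENNReal.ofReal (q e T))) (past τ e ⁻¹' S) +
      (𝔗.withDensity (fun T => ENNReal.ofReal (1 - q e T))) (past τ e ⁻¹' S)
      = 𝔗 (past τ e ⁻¹' S) := by
    rw [withDensity_apply _ (hp hS), withDensity_apply _ (hp hS),
      ← lintegral_add_left (hqm e).ennreal_ofReal]
    have : ∀ T, ENNReal.ofReal (q e T) + ENNReal.ofReal (1 - q e T) = 1 := by
      intro T
      rw [← ENNReal.ofReal_add (hq0 e T).1 (by linarith [(hq0 e T).2])]
      simp
    simp [this]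
  have hfin : 𝔗.restrict {T | e ∈ T} (past τ e ⁻¹' S) ≠ ∞ := measure_ne_top _ _
  rw [← hsum2, ← h1] at hsum1
  exact (ENNReal.add_right_inj hfin).1 hsum1

include hq0 hqm hqc in
lemma past_lintegral' (e : E) (F : Set E → ℝ≥0∞) (hF : Measurable F)
    (hdep : ∀ T T', (∀ f, τ f < τ e → (f ∈ T ↔ f ∈ T')) → F T = F T') :
    ∫⁻ T in {T | e ∈ T}ᶜ, F T ∂𝔗 = ∫⁻ T, ENNReal.ofReal (1 - q e T) * F T ∂𝔗 := by
  have hF' : ∀ T, F T = F (past τ e T) := fun T => hdep _ _ fun f hf => past_iff τ e T f hf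
  have h1 : ∫⁻ T in {T | e ∈ T}ᶜ, F T ∂𝔗 =
      ∫⁻ T, F T ∂((𝔗.restrict {T | e ∈ T}ᶜ).map (past τ e)) := by
    rw [lintegral_map hF (measurable_past τ e)]
    exact lintegral_congr hF'
  rw [h1, past_measure_eq' τ 𝔗 q hqm hq0 hqc e, lintegral_map hF (measurable_past τ e)]
  simp only [← hF']
  have hm : Measurable fun T => ENNReal.ofReal (1 - q e T) :=
    (measurable_const.sub (hqm e)).ennreal_ofReal
  rw [lintegral_withDensity_eq_lintegral_mul _ hm hF]
  rfl

/-- A function of `(T, ξ, x)` depends on the past only. -/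
def PastDep (τ : E → ℝ) (e : E) (G : Set E × (E → ℝ) × ℝ → ℝ≥0∞) : Prop :=
  ∀ T T' ξ ξ' x, (∀ f, τ f < τ e → (f ∈ T ↔ f ∈ T')) → (∀ f, τ f < τ e → ξ f = ξ' f) →
    G (T, ξ, x) = G (T', ξ', x)

lemma refresh (e : E) (T : Set E) (G : Set E × (E → ℝ) × ℝ → ℝ≥0∞) (hG : Measurable G)
    (hdep : PastDep τ e G) :
    ∫⁻ ξ, G (T, ξ, ξ e) ∂(Measure.infinitePi fun _ : E => unif) =
      ∫⁻ ξ, ∫⁻ x, G (T, ξ, x) ∂unif ∂(Measure.infinitePi fun _ : E => unif) := by
  classical
  have hmeas : Measurable fun p : (E → ℝ) × ℝ => Function.update p.1 e p.2 := by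
    refine measurable_pi_iff.2 fun i => ?_
    by_cases h : i = e
    · subst h
      simpa using measurable_snd
    · simp only [Function.update_of_ne h]
      exact (measurable_pi_apply i).comp measurable_fst
  have hm1 : Measurable fun ξ : E → ℝ => G (T, ξ, ξ e) :=
    hG.comp (measurable_const.prodMk (measurable_id.prodMk (measurable_pi_apply e)))
  conv_lhs => rw [← map_update e]
  rw [lintegral_map hm1 hmeas, lintegral_prod]
  · refine lintegral_congr fun ξ => lintegral_congr fun x => ?_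
    simp only [Function.update_self]
    refine hdep _ _ _ _ _ (fun f _ => Iff.rfl) (fun f hf => ?_)
    rw [Function.update_of_ne]
    rintro rfl
    exact lt_irrefl _ hf
  · exact (hm1.comp hmeas).aemeasurable

include hq0 hqm hqc in
lemma one_step (e : E) (G1 G0 : Set E × (E → ℝ) × ℝ → ℝ≥0∞) (hG1 : Measurable G1)
    (hG0 : Measurable G0) (hdep1 : PastDep τ e G1) (hdep0 : PastDep τ e G0) :
    ∫⁻ p, (open Classical in if e ∈ p.1 then G1 (p.1, p.2, p.2 e) else G0 (p.1, p.2, p.2 e))
        ∂(𝔗.prod (Measure.infinitePi fun _ : E => unif)) =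
      ∫⁻ p, (ENNReal.ofReal (q e p.1) * ∫⁻ x, G1 (p.1, p.2, x) ∂unif +
        ENNReal.ofReal (1 - q e p.1) * ∫⁻ x, G0 (p.1, p.2, x) ∂unif)
        ∂(𝔗.prod (Measure.infinitePi fun _ : E => unif)) := by
  classical
  have hms : MeasurableSet {T : Set E | e ∈ T} := measurableSet_mem e
  have hms' : MeasurableSet {p : Set E × (E → ℝ) | e ∈ p.1} := measurable_fst hms
  have hmap : Measurable fun p : Set E × (E → ℝ) => (p.1, p.2, p.2 e) :=
    measurable_fst.prodMk (measurable_snd.prodMk ((measurable_pi_apply e).comp measurable_snd))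
  have hassoc : Measurable fun p : (Set E × (E → ℝ)) × ℝ => (p.1.1, p.1.2, p.2) :=
    (measurable_fst.comp measurable_fst).prodMk
      ((measurable_snd.comp measurable_fst).prodMk measurable_snd)
  have hI1 : Measurable fun p : Set E × (E → ℝ) => ∫⁻ x, G1 (p.1, p.2, x) ∂unif :=
    (hG1.comp hassoc).lintegral_prod_right'
  have hI0 : Measurable fun p : Set E × (E → ℝ) => ∫⁻ x, G0 (p.1, p.2, x) ∂unif :=
    (hG0.comp hassoc).lintegral_prod_right'
  have hJ1 : Measurable fun T : Set E =>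
      ∫⁻ ξ, ∫⁻ x, G1 (T, ξ, x) ∂unif ∂(Measure.infinitePi fun _ : E => unif) :=
    hI1.lintegral_prod_right'
  have hJ0 : Measurable fun T : Set E =>
      ∫⁻ ξ, ∫⁻ x, G0 (T, ξ, x) ∂unif ∂(Measure.infinitePi fun _ : E => unif) :=
    hI0.lintegral_prod_right'
  have hq1 : Measurable fun p : Set E × (E → ℝ) => ENNReal.ofReal (q e p.1) :=
    ((hqm e).comp measurable_fst).ennreal_ofReal
  have hq2 : Measurable fun p : Set E × (E → ℝ) => ENNReal.ofReal (1 - q e p.1) :=
    (measurable_const.sub ((hqm e).comp measurable_fst)).ennreal_ofReal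
  have hite : Measurable fun p : Set E × (E → ℝ) =>
      if e ∈ p.1 then G1 (p.1, p.2, p.2 e) else G0 (p.1, p.2, p.2 e) :=
    Measurable.ite hms' (hG1.comp hmap) (hG0.comp hmap)
  have hadd : Measurable fun p : Set E × (E → ℝ) =>
      ENNReal.ofReal (q e p.1) * ∫⁻ x, G1 (p.1, p.2, x) ∂unif +
        ENNReal.ofReal (1 - q e p.1) * ∫⁻ x, G0 (p.1, p.2, x) ∂unif :=
    (hq1.mul hI1).add (hq2.mul hI0)
  rw [lintegral_prod _ hite.aemeasurable, lintegral_prod _ hadd.aemeasurable]
  have hL : ∀ T : Set E, ∫⁻ ξ, (if e ∈ T then G1 (T, ξ, ξ e) else G0 (T, ξ, ξ e))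
      ∂(Measure.infinitePi fun _ : E => unif) =
      {T | e ∈ T}.indicator (fun T => ∫⁻ ξ, ∫⁻ x, G1 (T, ξ, x) ∂unif
        ∂(Measure.infinitePi fun _ : E => unif)) T +
      {T | e ∈ T}ᶜ.indicator (fun T => ∫⁻ ξ, ∫⁻ x, G0 (T, ξ, x) ∂unif
        ∂(Measure.infinitePi fun _ : E => unif)) T := by
    intro T
    by_cases hT : e ∈ T
    · rw [Set.indicator_of_mem (show T ∈ {T | e ∈ T} from hT),
        Set.indicator_of_notMem (show T ∉ {T | e ∈ T}ᶜ from fun h => h hT), add_zero]
      simp only [hT, if_true]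
      exact refresh τ e T G1 hG1 hdep1
    · rw [Set.indicator_of_notMem (show T ∉ {T | e ∈ T} from hT),
        Set.indicator_of_mem (show T ∈ {T | e ∈ T}ᶜ from hT), zero_add]
      simp only [hT, if_false]
      exact refresh τ e T G0 hG0 hdep0
  have hR : ∀ T : Set E, ∫⁻ ξ, (ENNReal.ofReal (q e T) * ∫⁻ x, G1 (T, ξ, x) ∂unif +
      ENNReal.ofReal (1 - q e T) * ∫⁻ x, G0 (T, ξ, x) ∂unif)
      ∂(Measure.infinitePi fun _ : E => unif) =
      ENNReal.ofReal (q e T) * (∫⁻ ξ, ∫⁻ x, G1 (T, ξ, x) ∂unif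
        ∂(Measure.infinitePi fun _ : E => unif)) +
      ENNReal.ofReal (1 - q e T) * ∫⁻ ξ, ∫⁻ x, G0 (T, ξ, x) ∂unif
        ∂(Measure.infinitePi fun _ : E => unif) := by
    intro T
    have h1 : Measurable fun ξ : E → ℝ => ∫⁻ x, G1 (T, ξ, x) ∂unif :=
      hI1.comp measurable_prodMk_left
    have h0 : Measurable fun ξ : E → ℝ => ∫⁻ x, G0 (T, ξ, x) ∂unif :=
      hI0.comp measurable_prodMk_left
    rw [lintegral_add_left (h1.const_mul _), lintegral_const_mul _ h1, lintegral_const_mul _ h0]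
  simp only [hL, hR]
  have hqJ1 : Measurable fun T : Set E => ENNReal.ofReal (q e T) *
      ∫⁻ ξ, ∫⁻ x, G1 (T, ξ, x) ∂unif ∂(Measure.infinitePi fun _ : E => unif) :=
    (hqm e).ennreal_ofReal.mul hJ1
  rw [lintegral_add_left (hJ1.indicator hms), lintegral_indicator hms,
    lintegral_indicator hms.compl,
    past_lintegral τ 𝔗 q hqm hqc e _ hJ1, past_lintegral' τ 𝔗 q hqm hq0 hqc e _ hJ0,
    lintegral_add_left hqJ1]
  · intro T T' h
    exact lintegral_congr fun ξ => lintegral_congr fun x => hdep0 _ _ _ _ _ h fun _ _ => rfl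
  · intro T T' h
    exact lintegral_congr fun ξ => lintegral_congr fun x => hdep1 _ _ _ _ _ h fun _ _ => rfl

include hqm in
lemma measurable_vlab (i : E) :
    Measurable fun p : Set E × (E → ℝ) => vlab (q i p.1) (p.2 i) (i ∈ p.1) := by
  classical
  have hms : MeasurableSet {T : Set E | i ∈ T} := measurableSet_mem i
  have hms' : MeasurableSet {p : Set E × (E → ℝ) | i ∈ p.1} := measurable_fst hms
  have hq1 : Measurable fun p : Set E × (E → ℝ) => q i p.1 := (hqm i).comp measurable_fst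
  have hx : Measurable fun p : Set E × (E → ℝ) => p.2 i :=
    (measurable_pi_apply i).comp measurable_snd
  exact Measurable.ite hms' (hq1.mul hx) (hq1.add ((measurable_const.sub hq1).mul hx))

include hqdep in
lemma vlab_dep (e i : E) (hi : τ i < τ e) (T T' : Set E) (ξ ξ' : E → ℝ)
    (h : ∀ f, τ f < τ e → (f ∈ T ↔ f ∈ T')) (h' : ∀ f, τ f < τ e → ξ f = ξ' f) :
    vlab (q i T) (ξ i) (i ∈ T) = vlab (q i T') (ξ' i) (i ∈ T') := by
  rw [hqdep i T T' (fun f hf => h f (hf.trans hi)), h' i hi, propext (h i hi)]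

end Main

/-- PART C (i) (sequential randomisation over an arbitrary, e.g. dense, order). -/
theorem rosenblatt {E : Type*} [Countable E] (τ : E → ℝ) (hτ : Function.Injective τ)
    (𝔗 : Measure (Set E)) [IsProbabilityMeasure 𝔗]
    (q : E → Set E → ℝ) (hqm : ∀ e, Measurable (q e)) (hq0 : ∀ e T, q e T ∈ Set.Icc (0:ℝ) 1)
    (hqdep : ∀ e T T', (∀ f, τ f < τ e → (f ∈ T ↔ f ∈ T')) → q e T = q e T')
    (hqc : ∀ (e : E) (A B : Finset E), (∀ f ∈ A, τ f < τ e) → (∀ f ∈ B, τ f < τ e) →
      𝔗 {T | e ∈ T ∧ ↑A ⊆ T ∧ Disjoint (B : Set E) T} =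
        ∫⁻ T in {T | ↑A ⊆ T ∧ Disjoint (B : Set E) T}, ENNReal.ofReal (q e T) ∂𝔗) :
    (𝔗.prod (Measure.infinitePi fun _ : E => unif)).map
        (fun p e => vlab (q e p.1) (p.2 e) (e ∈ p.1)) =
      Measure.infinitePi fun _ : E => unif := by
  classical
  have hV : Measurable fun (p : Set E × (E → ℝ)) (e : E) => vlab (q e p.1) (p.2 e) (e ∈ p.1) :=
    measurable_pi_iff.2 (measurable_vlab q hqm)
  apply Measure.eq_infinitePi
  intro s t ht
  rw [Measure.map_apply hV (MeasurableSet.pi s.countable_toSet fun i _ => ht i)]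
  induction s using Finset.induction_on_max_value τ with
  | empty => simp
  | insert a s ha hmax ih =>
    have hlt : ∀ x ∈ s, τ x < τ a := fun x hx =>
      lt_of_le_of_ne (hmax x hx) (fun h => ha (hτ h ▸ hx))
    set V : Set E × (E → ℝ) → E → ℝ := fun p e => vlab (q e p.1) (p.2 e) (e ∈ p.1) with hVdef
    set K : Set (Set E × (E → ℝ)) := V ⁻¹' ((s : Set E).pi t) with hKdef
    have hK : MeasurableSet K := hV (MeasurableSet.pi s.countable_toSet fun i _ => ht i)
    have hKdep : ∀ T T' ξ ξ', (∀ f, τ f < τ a → (f ∈ T ↔ f ∈ T')) →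
        (∀ f, τ f < τ a → ξ f = ξ' f) → ((T, ξ) ∈ K ↔ (T', ξ') ∈ K) := by
      intro T T' ξ ξ' h h'
      simp only [hKdef, Set.mem_preimage, Set.mem_pi, Finset.mem_coe, hVdef]
      refine forall_congr' fun i => ?_
      refine imp_congr_right fun hi => ?_
      rw [vlab_dep τ q hqdep a i (hlt i hi) T T' ξ ξ' h h']
    let φ : ℝ → ℝ≥0∞ := (t a).indicator 1
    have hφ : Measurable φ := measurable_one.indicator (ht a)
    let G1 : Set E × (E → ℝ) × ℝ → ℝ≥0∞ := fun p =>
      K.indicator 1 (p.1, p.2.1) * φ (q a p.1 * p.2.2)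
    let G0 : Set E × (E → ℝ) × ℝ → ℝ≥0∞ := fun p =>
      K.indicator 1 (p.1, p.2.1) * φ (q a p.1 + (1 - q a p.1) * p.2.2)
    have hKm : Measurable fun p : Set E × (E → ℝ) × ℝ => K.indicator (1 : Set E × (E → ℝ) → ℝ≥0∞) (p.1, p.2.1) :=
      (measurable_one.indicator hK).comp
        (measurable_fst.prodMk (measurable_fst.comp measurable_snd))
    have hqa : Measurable fun p : Set E × (E → ℝ) × ℝ => q a p.1 := (hqm a).comp measurable_fst
    have hx : Measurable fun p : Set E × (E → ℝ) × ℝ => p.2.2 :=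
      measurable_snd.comp measurable_snd
    have hG1 : Measurable G1 := hKm.mul (hφ.comp (hqa.mul hx))
    have hG0 : Measurable G0 := hKm.mul
      (hφ.comp (hqa.add ((measurable_const.sub hqa).mul hx)))
    have hd1 : PastDep τ a G1 := by
      intro T T' ξ ξ' x h h'
      simp only [G1]
      rw [hqdep a T T' h]
      congr 1
      simp only [Set.indicator_apply, hKdep T T' ξ ξ' h h', Pi.one_apply]
    have hd0 : PastDep τ a G0 := by
      intro T T' ξ ξ' x h h'
      simp only [G0]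
      rw [hqdep a T T' h]
      congr 1
      simp only [Set.indicator_apply, hKdep T T' ξ ξ' h h', Pi.one_apply]
    have hstep := one_step τ 𝔗 q hqm hq0 hqc a G1 G0 hG1 hG0 hd1 hd0
    have hset : MeasurableSet (V ⁻¹' ((↑(insert a s) : Set E).pi t)) :=
      hV (MeasurableSet.pi (insert a s).countable_toSet fun i _ => ht i)
    have hL : (𝔗.prod (Measure.infinitePi fun _ : E => unif))
        (V ⁻¹' ((↑(insert a s) : Set E).pi t)) =
        ∫⁻ p, (if a ∈ p.1 then G1 (p.1, p.2, p.2 a) else G0 (p.1, p.2, p.2 a))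
        ∂(𝔗.prod (Measure.infinitePi fun _ : E => unif)) := by
      rw [← lintegral_indicator_one hset]
      refine lintegral_congr fun p => ?_
      have hmem : p ∈ V ⁻¹' ((↑(insert a s) : Set E).pi t) ↔ p ∈ K ∧ V p a ∈ t a := by
        simp only [hKdef, Set.mem_preimage, Set.mem_pi, Finset.coe_insert, Set.mem_insert_iff,
          Finset.mem_coe, forall_eq_or_imp]
        tauto
      by_cases hap : a ∈ p.1
      · simp only [hap, if_true, G1, φ, Set.indicator_apply, hmem, Pi.one_apply]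
        have hVa : V p a = q a p.1 * p.2 a := by simp [hVdef, vlab, hap]
        rw [hVa]
        by_cases h1 : p ∈ K <;> by_cases h2 : q a p.1 * p.2 a ∈ t a <;> simp [h1, h2]
      · simp only [hap, if_false, G0, φ, Set.indicator_apply, hmem, Pi.one_apply]
        have hVa : V p a = q a p.1 + (1 - q a p.1) * p.2 a := by simp [hVdef, vlab, hap]
        rw [hVa]
        by_cases h1 : p ∈ K <;>
          by_cases h2 : q a p.1 + (1 - q a p.1) * p.2 a ∈ t a <;> simp [h1, h2]
    rw [hL, hstep, Finset.prod_insert ha, mul_comm, ← ih, ← lintegral_indicator_one hK,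
      ← lintegral_mul_const _ (measurable_one.indicator hK)]
    refine lintegral_congr fun p => ?_
    have hs := split_unif (q a p.1) (hq0 a p.1) φ hφ
    have hφ1 : Measurable fun x => φ (q a p.1 * x) := hφ.comp (measurable_const_mul _)
    have hφ0 : Measurable fun x => φ (q a p.1 + (1 - q a p.1) * x) :=
      hφ.comp ((measurable_const_mul _).const_add _)
    simp only [G1, G0]
    rw [lintegral_const_mul _ hφ1, lintegral_const_mul _ hφ0, mul_left_comm,
      mul_left_comm (ENNReal.ofReal (1 - q a p.1)), ← mul_add, hs,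
      lintegral_indicator_one (ht a)]

/-- PART C (ii): the probability that the decision `V_e < a` (with `a` depending on the past
only) differs from the true status of `e` is `E |q_e - a|`. -/
theorem rosenblatt_xor {E : Type*} [Countable E] (τ : E → ℝ) (hτ : Function.Injective τ)
    (𝔗 : Measure (Set E)) [IsProbabilityMeasure 𝔗]
    (q : E → Set E → ℝ) (hqm : ∀ e, Measurable (q e)) (hq0 : ∀ e T, q e T ∈ Set.Icc (0:ℝ) 1)
    (hqdep : ∀ e T T', (∀ f, τ f < τ e → (f ∈ T ↔ f ∈ T')) → q e T = q e T')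
    (hqc : ∀ (e : E) (A B : Finset E), (∀ f ∈ A, τ f < τ e) → (∀ f ∈ B, τ f < τ e) →
      𝔗 {T | e ∈ T ∧ ↑A ⊆ T ∧ Disjoint (B : Set E) T} =
        ∫⁻ T in {T | ↑A ⊆ T ∧ Disjoint (B : Set E) T}, ENNReal.ofReal (q e T) ∂𝔗)
    (e : E) (a : Set E × (E → ℝ) → ℝ) (ha : Measurable a) (ha0 : ∀ p, a p ∈ Set.Icc (0:ℝ) 1)
    (hadep : ∀ T T' ξ ξ', (∀ f, τ f < τ e → (f ∈ T ↔ f ∈ T')) → (∀ f, τ f < τ e → ξ f = ξ' f) →
      a (T, ξ) = a (T', ξ')) :
    (𝔗.prod (Measure.infinitePi fun _ : E => unif))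
        {p | ¬ (e ∈ p.1 ↔ vlab (q e p.1) (p.2 e) (e ∈ p.1) < a p)} =
      ∫⁻ p, ENNReal.ofReal |q e p.1 - a p| ∂(𝔗.prod (Measure.infinitePi fun _ : E => unif)) := by
  classical
  let G1 : Set E × (E → ℝ) × ℝ → ℝ≥0∞ := fun p =>
    if a (p.1, p.2.1) ≤ q e p.1 * p.2.2 then 1 else 0
  let G0 : Set E × (E → ℝ) × ℝ → ℝ≥0∞ := fun p =>
    if q e p.1 + (1 - q e p.1) * p.2.2 < a (p.1, p.2.1) then 1 else 0
  have ham : Measurable fun p : Set E × (E → ℝ) × ℝ => a (p.1, p.2.1) :=
    ha.comp (measurable_fst.prodMk (measurable_fst.comp measurable_snd))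
  have hqa : Measurable fun p : Set E × (E → ℝ) × ℝ => q e p.1 := (hqm e).comp measurable_fst
  have hx : Measurable fun p : Set E × (E → ℝ) × ℝ => p.2.2 :=
    measurable_snd.comp measurable_snd
  have hG1 : Measurable G1 := Measurable.ite (measurableSet_le ham (hqa.mul hx))
    measurable_const measurable_const
  have hG0 : Measurable G0 := Measurable.ite
    (measurableSet_lt (hqa.add ((measurable_const.sub hqa).mul hx)) ham)
    measurable_const measurable_const
  have hd1 : PastDep τ e G1 := by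
    intro T T' ξ ξ' x h h'
    simp only [G1]
    rw [hqdep e T T' h, hadep T T' ξ ξ' h h']
  have hd0 : PastDep τ e G0 := by
    intro T T' ξ ξ' x h h'
    simp only [G0]
    rw [hqdep e T T' h, hadep T T' ξ ξ' h h']
  have hstep := one_step τ 𝔗 q hqm hq0 hqc e G1 G0 hG1 hG0 hd1 hd0
  have hms : MeasurableSet {T : Set E | e ∈ T} := measurableSet_mem e
  have hms' : MeasurableSet {p : Set E × (E → ℝ) | e ∈ p.1} := measurable_fst hms
  have hlt : MeasurableSet {p : Set E × (E → ℝ) |
      vlab (q e p.1) (p.2 e) (e ∈ p.1) < a p} :=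
    measurableSet_lt (measurable_vlab q hqm e) ha
  have hset : MeasurableSet {p : Set E × (E → ℝ) |
      ¬ (e ∈ p.1 ↔ vlab (q e p.1) (p.2 e) (e ∈ p.1) < a p)} := by
    have : {p : Set E × (E → ℝ) |
      ¬ (e ∈ p.1 ↔ vlab (q e p.1) (p.2 e) (e ∈ p.1) < a p)} =
      ({p : Set E × (E → ℝ) | e ∈ p.1} \ {p | vlab (q e p.1) (p.2 e) (e ∈ p.1) < a p}) ∪
      ({p : Set E × (E → ℝ) | vlab (q e p.1) (p.2 e) (e ∈ p.1) < a p} \ {p | e ∈ p.1}) := by
      ext p
      simp only [Set.mem_ofPred_eq, Set.mem_union, Set.mem_sdiff]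
      tauto
    rw [this]
    exact (hms'.diff hlt).union (hlt.diff hms')
  rw [← lintegral_indicator_one hset]
  have hL : ∀ p : Set E × (E → ℝ), {p : Set E × (E → ℝ) |
      ¬ (e ∈ p.1 ↔ vlab (q e p.1) (p.2 e) (e ∈ p.1) < a p)}.indicator (1 : Set E × (E → ℝ) → ℝ≥0∞) p =
      if e ∈ p.1 then G1 (p.1, p.2, p.2 e) else G0 (p.1, p.2, p.2 e) := by
    intro p
    by_cases hp : e ∈ p.1
    · simp only [Set.indicator_apply, Set.mem_ofPred_eq, hp, true_iff, not_lt, if_true, G1,
        Pi.one_apply, vlab, Prod.mk.eta]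
    · simp only [Set.indicator_apply, Set.mem_ofPred_eq, hp, false_iff, not_not, if_false, G0,
        Pi.one_apply, vlab, Prod.mk.eta]
  simp only [hL]
  rw [hstep]
  refine lintegral_congr fun p => ?_
  obtain ⟨hq1, hq2⟩ := hq0 e p.1
  obtain ⟨ha1, ha2⟩ := ha0 p
  have hm1 : Measurable fun y : ℝ => if a p ≤ y then (1 : ℝ≥0∞) else 0 :=
    Measurable.ite measurableSet_Ici measurable_const measurable_const
  have hm2 : Measurable fun y : ℝ => if y < a p then (1 : ℝ≥0∞) else 0 :=
    Measurable.ite measurableSet_Iio measurable_const measurable_const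
  have h1 := scale (q e p.1) 0 hq1 _ hm1
  have h2 := scale (1 - q e p.1) (q e p.1) (by linarith) _ hm2
  simp only [zero_add, add_sub_cancel] at h1 h2
  simp only [G1, G0]
  rw [h1, h2]
  have e1 : ∫⁻ y in Set.Icc 0 (q e p.1), (if a p ≤ y then (1 : ℝ≥0∞) else 0) =
      ENNReal.ofReal (q e p.1 - a p) := by
    have : (fun y => if a p ≤ y then (1 : ℝ≥0∞) else 0) = (Set.Ici (a p)).indicator 1 := by
      ext y; simp [Set.indicator_apply]
    rw [this, lintegral_indicator_one measurableSet_Ici,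
      Measure.restrict_apply measurableSet_Ici, Set.inter_comm]
    have : Set.Icc 0 (q e p.1) ∩ Set.Ici (a p) = Set.Icc (a p) (q e p.1) := by
      ext y
      simp only [Set.mem_inter_iff, Set.mem_Icc, Set.mem_Ici]
      constructor
      · rintro ⟨⟨h1, h2⟩, h3⟩; exact ⟨h3, h2⟩
      · rintro ⟨h1, h2⟩; exact ⟨⟨by linarith, h2⟩, h1⟩
    rw [this, Real.volume_Icc]
  have e2 : ∫⁻ y in Set.Icc (q e p.1) 1, (if y < a p then (1 : ℝ≥0∞) else 0) =
      ENNReal.ofReal (a p - q e p.1) := by
    have : (fun y => if y < a p then (1 : ℝ≥0∞) else 0) = (Set.Iio (a p)).indicator 1 := by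
      ext y; simp [Set.indicator_apply]
    rw [this, lintegral_indicator_one measurableSet_Iio,
      Measure.restrict_apply measurableSet_Iio, Set.inter_comm]
    have : Set.Icc (q e p.1) 1 ∩ Set.Iio (a p) = Set.Ico (q e p.1) (a p) := by
      ext y
      simp only [Set.mem_inter_iff, Set.mem_Icc, Set.mem_Iio, Set.mem_Ico]
      constructor
      · rintro ⟨⟨h1, h2⟩, h3⟩; exact ⟨h1, h3⟩
      · rintro ⟨h1, h2⟩; exact ⟨⟨h1, by linarith⟩, h2⟩
    rw [this, Real.volume_Ico]
  rw [e1, e2]
  rcases le_total (a p) (q e p.1) with h | h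
  · rw [ENNReal.ofReal_of_nonpos (show a p - q e p.1 ≤ 0 by linarith), add_zero,
      abs_of_nonneg (by linarith)]
  · rw [ENNReal.ofReal_of_nonpos (show q e p.1 - a p ≤ 0 by linarith), zero_add,
      abs_of_nonpos (by linarith), neg_sub]

end Vale.Agent.P143C
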